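import Vale.Agent.P333.H476.TF.Str

set_option autoImplicit false

/-!
P333: no string of the family is a substring of another one, the string `sup` of length 1124 contains
all of them, and the last three strings of the greedy algorithm do not overlap.
-/

namespace Vale.Agent.P333.H476.TF

theorem free_fam : free fam = true := by decide +kernel

theorem reduced : Greedy.Reduced fam fam := by
  refine ⟨by decide +kernel, fun s => ⟨fun h => ⟨h, fun t ht hst => free_spec free_fam h ht hst⟩,
    fun h => h.1⟩⟩

theorem opt_le : opt fam ≤ 1124 := by
  have h1 : IsSuperstring fam sup := by
    have h2 : (fam.all fun s => isInf s sup) = true := by decide +kernel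
    rw [List.all_eq_true] at h2
    intro s hs
    exact (isInf_iff s sup).1 (h2 s hs)
  exact Nat.sInf_le ⟨sup, h1, by decide +kernel⟩

theorem inv_last : Inv [g9, g8, g6] :=
  inv_of (by decide +kernel) (by decide +kernel) (by decide +kernel)

theorem length_last : (([g9, g8, g6] : List (List ℕ)).map List.length).sum = 2265 := by
  decide +kernel

end Vale.Agent.P333.H476.TF
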