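import Vale.Agent.P333.H476.TF.Str

set_option autoImplicit false

/-!
P333: steps 0 to 0 of the greedy algorithm, each of them forced.
-/

namespace Vale.Agent.P333.H476.TF

theorem step0 : Greedy.Step
    [x0, y0, x1, y1, x2, y2, x3, y3, h0, h1, h2, h3, h4]
    [g0, x0, y0, x1, y1, x2, y2, x3, y3, h0, h1, h2] ∧
    ∀ G G' : List (List ℕ), G.Perm
      [x0, y0, x1, y1, x2, y2, x3, y3, h0, h1, h2, h3, h4] →
      Greedy.Step G G' → G'.Perm
      [g0, x0, y0, x1, y1, x2, y2, x3, y3, h0, h1, h2] :=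
  ustep_of h3 h4 g0
    [x0, y0, x1, y1, x2, y2, x3, y3, h0, h1, h2] 389
    ((List.perm_middle (l₁ := [x0, y0, x1, y1, x2, y2, x3, y3, h0, h1, h2]) (a := h3)
      (l₂ := [h4])).trans
      ((List.perm_middle (l₁ := [x0, y0, x1, y1, x2, y2, x3, y3, h0, h1, h2]) (a := h4)
      (l₂ := [])).cons h3))
    (by decide +kernel) (by decide +kernel) (by decide +kernel) (by decide +kernel)
    (by decide +kernel) (by decide +kernel) rfl

end Vale.Agent.P333.H476.TF
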