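import Vale.Agent.P333.H476.TF.Str

set_option autoImplicit false

/-!
P333: steps 1 to 2 of the greedy algorithm, each of them forced.
-/

namespace Vale.Agent.P333.H476.TF

theorem step1 : Greedy.Step
    [g0, x0, y0, x1, y1, x2, y2, x3, y3, h0, h1, h2]
    [g1, g0, x0, y0, x1, y1, x2, y2, h0, h1, h2] ∧
    ∀ G G' : List (List ℕ), G.Perm
      [g0, x0, y0, x1, y1, x2, y2, x3, y3, h0, h1, h2] →
      Greedy.Step G G' → G'.Perm
      [g1, g0, x0, y0, x1, y1, x2, y2, h0, h1, h2] :=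
  ustep_of x3 y3 g1
    [g0, x0, y0, x1, y1, x2, y2, h0, h1, h2] 387
    ((List.perm_middle (l₁ := [g0, x0, y0, x1, y1, x2, y2]) (a := x3)
      (l₂ := [y3, h0, h1, h2])).trans
      ((List.perm_middle (l₁ := [g0, x0, y0, x1, y1, x2, y2]) (a := y3)
      (l₂ := [h0, h1, h2])).cons x3))
    (by decide +kernel) (by decide +kernel) (by decide +kernel) (by decide +kernel)
    (by decide +kernel) (by decide +kernel) rfl

theorem step2 : Greedy.Step
    [g1, g0, x0, y0, x1, y1, x2, y2, h0, h1, h2]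
    [g2, g1, g0, x0, y0, x1, y1, x2, y2, h2] ∧
    ∀ G G' : List (List ℕ), G.Perm
      [g1, g0, x0, y0, x1, y1, x2, y2, h0, h1, h2] →
      Greedy.Step G G' → G'.Perm
      [g2, g1, g0, x0, y0, x1, y1, x2, y2, h2] :=
  ustep_of h0 h1 g2
    [g1, g0, x0, y0, x1, y1, x2, y2, h2] 344
    ((List.perm_middle (l₁ := [g1, g0, x0, y0, x1, y1, x2, y2]) (a := h0)
      (l₂ := [h1, h2])).trans
      ((List.perm_middle (l₁ := [g1, g0, x0, y0, x1, y1, x2, y2]) (a := h1)
      (l₂ := [h2])).cons h0))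
    (by decide +kernel) (by decide +kernel) (by decide +kernel) (by decide +kernel)
    (by decide +kernel) (by decide +kernel) rfl

end Vale.Agent.P333.H476.TF
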