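import Vale.Agent.P333.H476.TF.Str

set_option autoImplicit false

/-!
P333: steps 3 to 4 of the greedy algorithm, each of them forced.
-/

namespace Vale.Agent.P333.H476.TF

theorem step3 : Greedy.Step
    [g2, g1, g0, x0, y0, x1, y1, x2, y2, h2]
    [g3, g2, g1, g0, x1, y1, x2, y2, h2] ∧
    ∀ G G' : List (List ℕ), G.Perm
      [g2, g1, g0, x0, y0, x1, y1, x2, y2, h2] →
      Greedy.Step G G' → G'.Perm
      [g3, g2, g1, g0, x1, y1, x2, y2, h2] :=
  ustep_of x0 y0 g3
    [g2, g1, g0, x1, y1, x2, y2, h2] 342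
    ((List.perm_middle (l₁ := [g2, g1, g0]) (a := x0)
      (l₂ := [y0, x1, y1, x2, y2, h2])).trans
      ((List.perm_middle (l₁ := [g2, g1, g0]) (a := y0)
      (l₂ := [x1, y1, x2, y2, h2])).cons x0))
    (by decide +kernel) (by decide +kernel) (by decide +kernel) (by decide +kernel)
    (by decide +kernel) (by decide +kernel) rfl

theorem step4 : Greedy.Step
    [g3, g2, g1, g0, x1, y1, x2, y2, h2]
    [g4, g3, g2, g1, x1, y1, x2, y2] ∧
    ∀ G G' : List (List ℕ), G.Perm
      [g3, g2, g1, g0, x1, y1, x2, y2, h2] →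
      Greedy.Step G G' → G'.Perm
      [g4, g3, g2, g1, x1, y1, x2, y2] :=
  ustep_of h2 g0 g4
    [g3, g2, g1, x1, y1, x2, y2] 242
    ((List.perm_middle (l₁ := [g3, g2, g1, g0, x1, y1, x2, y2]) (a := h2)
      (l₂ := [])).trans
      ((List.perm_middle (l₁ := [g3, g2, g1]) (a := g0)
      (l₂ := [x1, y1, x2, y2])).cons h2))
    (by decide +kernel) (by decide +kernel) (by decide +kernel) (by decide +kernel)
    (by decide +kernel) (by decide +kernel) rfl

end Vale.Agent.P333.H476.TF
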