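import Vale.Agent.P333.H476.TF.Str

set_option autoImplicit false

/-!
P333: steps 5 to 9 of the greedy algorithm, each of them forced.
-/

namespace Vale.Agent.P333.H476.TF

theorem step5 : Greedy.Step
    [g4, g3, g2, g1, x1, y1, x2, y2]
    [g5, g4, g3, g2, g1, x1, y1] ∧
    ∀ G G' : List (List ℕ), G.Perm
      [g4, g3, g2, g1, x1, y1, x2, y2] →
      Greedy.Step G G' → G'.Perm
      [g5, g4, g3, g2, g1, x1, y1] :=
  ustep_of x2 y2 g5
    [g4, g3, g2, g1, x1, y1] 240
    ((List.perm_middle (l₁ := [g4, g3, g2, g1, x1, y1]) (a := x2)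
      (l₂ := [y2])).trans
      ((List.perm_middle (l₁ := [g4, g3, g2, g1, x1, y1]) (a := y2)
      (l₂ := [])).cons x2))
    (by decide +kernel) (by decide +kernel) (by decide +kernel) (by decide +kernel)
    (by decide +kernel) (by decide +kernel) rfl

theorem step6 : Greedy.Step
    [g5, g4, g3, g2, g1, x1, y1]
    [g6, g5, g3, g1, x1, y1] ∧
    ∀ G G' : List (List ℕ), G.Perm
      [g5, g4, g3, g2, g1, x1, y1] →
      Greedy.Step G G' → G'.Perm
      [g6, g5, g3, g1, x1, y1] :=
  ustep_of g2 g4 g6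
    [g5, g3, g1, x1, y1] 218
    ((List.perm_middle (l₁ := [g5, g4, g3]) (a := g2)
      (l₂ := [g1, x1, y1])).trans
      ((List.perm_middle (l₁ := [g5]) (a := g4)
      (l₂ := [g3, g1, x1, y1])).cons g2))
    (by decide +kernel) (by decide +kernel) (by decide +kernel) (by decide +kernel)
    (by decide +kernel) (by decide +kernel) rfl

theorem step7 : Greedy.Step
    [g6, g5, g3, g1, x1, y1]
    [g7, g6, g5, g3, g1] ∧
    ∀ G G' : List (List ℕ), G.Perm
      [g6, g5, g3, g1, x1, y1] →
      Greedy.Step G G' → G'.Perm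
      [g7, g6, g5, g3, g1] :=
  ustep_of x1 y1 g7
    [g6, g5, g3, g1] 215
    ((List.perm_middle (l₁ := [g6, g5, g3, g1]) (a := x1)
      (l₂ := [y1])).trans
      ((List.perm_middle (l₁ := [g6, g5, g3, g1]) (a := y1)
      (l₂ := [])).cons x1))
    (by decide +kernel) (by decide +kernel) (by decide +kernel) (by decide +kernel)
    (by decide +kernel) (by decide +kernel) rfl

theorem step8 : Greedy.Step
    [g7, g6, g5, g3, g1]
    [g8, g7, g6, g3] ∧
    ∀ G G' : List (List ℕ), G.Perm
      [g7, g6, g5, g3, g1] →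
      Greedy.Step G G' → G'.Perm
      [g8, g7, g6, g3] :=
  ustep_of g1 g5 g8
    [g7, g6, g3] 32
    ((List.perm_middle (l₁ := [g7, g6, g5, g3]) (a := g1)
      (l₂ := [])).trans
      ((List.perm_middle (l₁ := [g7, g6]) (a := g5)
      (l₂ := [g3])).cons g1))
    (by decide +kernel) (by decide +kernel) (by decide +kernel) (by decide +kernel)
    (by decide +kernel) (by decide +kernel) rfl

theorem step9 : Greedy.Step
    [g8, g7, g6, g3]
    [g9, g8, g6] ∧
    ∀ G G' : List (List ℕ), G.Perm
      [g8, g7, g6, g3] →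
      Greedy.Step G G' → G'.Perm
      [g9, g8, g6] :=
  ustep_of g3 g7 g9
    [g8, g6] 8
    ((List.perm_middle (l₁ := [g8, g7, g6]) (a := g3)
      (l₂ := [])).trans
      ((List.perm_middle (l₁ := [g8]) (a := g7)
      (l₂ := [g6])).cons g3))
    (by decide +kernel) (by decide +kernel) (by decide +kernel) (by decide +kernel)
    (by decide +kernel) (by decide +kernel) rfl

end Vale.Agent.P333.H476.TF
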