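import Vale.Agent.P333.H476.TF.Fr
import Vale.Agent.P333.H476.TF.StA
import Vale.Agent.P333.H476.TF.StB
import Vale.Agent.P333.H476.TF.StC
import Vale.Agent.P333.H476.TF.StD

set_option autoImplicit false

/-!
P333: there is a family of strings for which every possible output of the greedy algorithm is longer
than twice a shortest common superstring.
-/

namespace Vale.Agent.P333.H476.TF

theorem all_length {t : List ℕ} (h : Greedy.Output fam t) : t.length = 2265 := by
  obtain ⟨F, hF, h⟩ := h
  have hp := perm_of_reduced reduced hF
  obtain ⟨F0, hp0, h0⟩ := head_step step0 (by decide) hp h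
  obtain ⟨F1, hp1, h1⟩ := head_step step1 (by decide) hp0 h0
  obtain ⟨F2, hp2, h2⟩ := head_step step2 (by decide) hp1 h1
  obtain ⟨F3, hp3, h3⟩ := head_step step3 (by decide) hp2 h2
  obtain ⟨F4, hp4, h4⟩ := head_step step4 (by decide) hp3 h3
  obtain ⟨F5, hp5, h5⟩ := head_step step5 (by decide) hp4 h4
  obtain ⟨F6, hp6, h6⟩ := head_step step6 (by decide) hp5 h5
  obtain ⟨F7, hp7, h7⟩ := head_step step7 (by decide) hp6 h6
  obtain ⟨F8, hp8, h8⟩ := head_step step8 (by decide) hp7 h7
  obtain ⟨F9, hp9, h9⟩ := head_step step9 (by decide) hp8 h8
  have h1 := Inv.sum_eq h9 (inv_last.perm hp9.symm)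
  have h2 : (F9.map List.length).sum = 2265 := by
    rw [(hp9.map List.length).sum_eq]
    exact length_last
  rw [h2] at h1
  simpa using h1

/-- the end of the run: the last strings are concatenated -/
theorem exists_end : ∀ (n : ℕ) (F : List (List ℕ)), F.length = n + 1 → Inv F →
    ∃ t, Relation.ReflTransGen Greedy.Step F [t] := by
  intro n
  induction n with
  | zero =>
      intro F hF _
      obtain ⟨t, ht⟩ := List.length_eq_one_iff.1 hF
      exact ⟨t, by rw [ht]⟩
  | succ n ih =>
      intro F hF hI
      match F, hF, hI with
      | x :: y :: R, hF, hI =>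
          have hst : Greedy.Step (x :: y :: R) ((x.take (x.length - 0) ++ y) :: R) := by
            refine ⟨x, y, R, 0, List.Perm.refl _, ⟨⟨[], rfl, List.nil_suffix, List.nil_prefix⟩, ?_⟩,
              ?_, rfl⟩
            · intro l hl
              obtain ⟨u, hu, h1, h2⟩ := hl
              have hne : x ≠ y := fun h => (List.nodup_cons.1 hI.1).1 (by
                rw [h]; exact List.mem_cons_self)
              rw [hI.2.2 x List.mem_cons_self y (List.mem_cons_of_mem _ List.mem_cons_self) hne u
                h1 h2] at hu
              exact Nat.le_of_eq hu.symm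
            · intro z w R' l hp hl
              obtain ⟨u, hu, h1, h2⟩ := hl.1
              have hI' : Inv (z :: w :: R') := hI.perm hp
              have hne : z ≠ w := fun h => (List.nodup_cons.1 hI'.1).1 (by
                rw [h]; exact List.mem_cons_self)
              rw [hI'.2.2 z List.mem_cons_self w (List.mem_cons_of_mem _ List.mem_cons_self) hne u
                h1 h2] at hu
              exact Nat.le_of_eq hu.symm
          have h1 := hI.step hst
          obtain ⟨t, ht⟩ := ih _ (by simpa using hF) h1.1
          exact ⟨t, Relation.ReflTransGen.head hst ht⟩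

theorem exists_output : ∃ t, Greedy.Output fam t := by
  obtain ⟨t, ht⟩ := exists_end 2 _ (by decide) inv_last
  refine ⟨t, fam, reduced, ?_⟩
  have k0 := Relation.ReflTransGen.single step0.1
  have k1 := k0.tail step1.1
  have k2 := k1.tail step2.1
  have k3 := k2.tail step3.1
  have k4 := k3.tail step4.1
  have k5 := k4.tail step5.1
  have k6 := k5.tail step6.1
  have k7 := k6.tail step7.1
  have k8 := k7.tail step8.1
  have k9 := k8.tail step9.1
  exact k9.trans ht

/-- **Every output of the greedy algorithm is longer than twice a shortest common superstring.** -/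
theorem every_output : ∃ S : List (List ℕ), Greedy.Reduced S S ∧ (∃ t, Greedy.Output S t) ∧
    ∀ t, Greedy.Output S t → 2 * opt S < t.length := by
  refine ⟨fam, reduced, exists_output, fun t ht => ?_⟩
  have h1 := opt_le
  have h2 := all_length ht
  omega

end Vale.Agent.P333.H476.TF
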