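import Vale.Agent.P333.H705.GrDefs

set_option autoImplicit false

/-!
P333: kernel checks for runs of the greedy algorithm in which every step is forced.
-/

namespace Vale.Agent.P333.H476.TF

/-! ### Boolean checks -/

/-- is the first list a prefix of the second one -/
def isPref : List ℕ → List ℕ → Bool
  | [], _ => true
  | _ :: _, [] => false
  | a :: x, b :: y => Nat.beq a b && isPref x y

theorem isPref_iff : ∀ x y : List ℕ, isPref x y = true ↔ x <+: y
  | [], y => by simp [isPref]
  | a :: x, [] => by simp [isPref]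
  | a :: x, b :: y => by
      have ih := isPref_iff x y
      simp only [isPref, Bool.and_eq_true, Nat.beq_eq, List.cons_prefix_cons, ih]

/-- no suffix of the list (of length `n`) longer than `k` is a prefix of `w` -/
def noOv (k : ℕ) (w : List ℕ) : List ℕ → ℕ → Bool
  | [], _ => true
  | a :: z, n => Nat.ble n k || (not (isPref (a :: z) w) && noOv k w z (n - 1))

theorem noOv_spec (k : ℕ) (w : List ℕ) : ∀ (z : List ℕ) (n : ℕ), n = z.length →
    noOv k w z n = true → ∀ u : List ℕ, u <:+ z → u <+: w → u.length ≤ k := by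
  intro z
  induction z with
  | nil =>
      intro n _ _ u hu _
      have : u = [] := List.suffix_nil.1 hu
      subst this
      simp
  | cons a z ih =>
      intro n hn h u hu hw
      simp only [noOv, Bool.or_eq_true, Bool.and_eq_true] at h
      rcases h with h | ⟨h1, h2⟩
      · have h3 : n ≤ k := Nat.le_of_ble_eq_true h
        have h4 := hu.length_le
        omega
      · rcases List.suffix_cons_iff.1 hu with h3 | h3
        · subst h3
          have h5 := (isPref_iff _ _).2 hw
          rw [h5] at h1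
          simp at h1
        · refine ih (n - 1) ?_ h2 u h3 hw
          simp at hn
          omega

/-- is `s` a substring of the second list -/
def isInf (s : List ℕ) : List ℕ → Bool
  | [] => isPref s []
  | a :: t => isPref s (a :: t) || isInf s t

theorem isInf_iff (s : List ℕ) : ∀ t : List ℕ, isInf s t = true ↔ s <:+: t
  | [] => by
      rw [isInf, isPref_iff]
      simp
  | a :: t => by
      have ih := isInf_iff s t
      rw [isInf, Bool.or_eq_true, isPref_iff, ih, List.infix_cons_iff]

/-- all overlaps of distinct members are at most `k` -/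
def good (F : List (List ℕ)) (k : ℕ) : Bool :=
  F.all fun z => F.all fun w => (isPref z w && isPref w z) || noOv k w z z.length

theorem good_spec {F : List (List ℕ)} {k : ℕ} (h : good F k = true) {z w : List ℕ} (hz : z ∈ F)
    (hw : w ∈ F) (hne : z ≠ w) {u : List ℕ} (h1 : u <:+ z) (h2 : u <+: w) : u.length ≤ k := by
  unfold good at h
  rw [List.all_eq_true] at h
  have h3 := h z hz
  rw [List.all_eq_true] at h3
  have h4 := h3 w hw
  rw [Bool.or_eq_true, Bool.and_eq_true, isPref_iff, isPref_iff] at h4
  rcases h4 with ⟨h5, h6⟩ | h5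
  · exact absurd (h5.eq_of_length (le_antisymm h5.length_le h6.length_le)) hne
  · exact noOv_spec k w z _ rfl h5 u h1 h2

/-- no member is a substring of another member -/
def free (F : List (List ℕ)) : Bool :=
  F.all fun z => F.all fun w => (isPref z w && isPref w z) || not (isInf z w)

theorem free_spec {F : List (List ℕ)} (h : free F = true) {z w : List ℕ} (hz : z ∈ F)
    (hw : w ∈ F) (h1 : z <:+: w) : z = w := by
  unfold free at h
  rw [List.all_eq_true] at h
  have h3 := h z hz
  rw [List.all_eq_true] at h3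
  have h4 := h3 w hw
  rw [Bool.or_eq_true, Bool.and_eq_true, isPref_iff, isPref_iff] at h4
  rcases h4 with ⟨h5, h6⟩ | h5
  · exact h5.eq_of_length (le_antisymm h5.length_le h6.length_le)
  · rw [(isInf_iff z w).2 h1] at h5
    simp at h5

/-- all overlaps of distinct members, other than the one of `x` and `y`, are at most `k` -/
def goodU (F : List (List ℕ)) (x y : List ℕ) (k : ℕ) : Bool :=
  F.all fun z => F.all fun w => (isPref z w && isPref w z) ||
    ((isPref z x && isPref x z) && (isPref w y && isPref y w)) || noOv k w z z.length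

theorem eq_of_isPref {z w : List ℕ} (h : (isPref z w && isPref w z) = true) : z = w := by
  rw [Bool.and_eq_true, isPref_iff, isPref_iff] at h
  exact h.1.eq_of_length (le_antisymm h.1.length_le h.2.length_le)

theorem goodU_spec {F : List (List ℕ)} {x y : List ℕ} {k : ℕ} (h : goodU F x y k = true)
    {z w : List ℕ} (hz : z ∈ F) (hw : w ∈ F) (hne : z ≠ w) (hxy : ¬ (z = x ∧ w = y))
    {u : List ℕ} (h1 : u <:+ z) (h2 : u <+: w) : u.length ≤ k := by
  unfold goodU at h
  rw [List.all_eq_true] at h
  have h3 := h z hz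
  rw [List.all_eq_true] at h3
  have h4 := h3 w hw
  rw [Bool.or_eq_true, Bool.or_eq_true] at h4
  rcases h4 with (h5 | h5) | h5
  · exact absurd (eq_of_isPref h5) hne
  · rw [Bool.and_eq_true] at h5
    exact absurd ⟨eq_of_isPref h5.1, eq_of_isPref h5.2⟩ hxy
  · exact noOv_spec k w z _ rfl h5 u h1 h2

/-- A step with a unique longest overlap: it exists and it is the only one. -/
theorem ustep_of {F F' : List (List ℕ)} (x y m : List ℕ) (R : List (List ℕ)) (k : ℕ)
    (hp : F.Perm (x :: y :: R)) (hnd : (x :: y :: R).Nodup)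
    (hky : k + 1 ≤ y.length) (hk : x.drop (x.length - (k + 1)) = y.take (k + 1))
    (hxy : noOv (k + 1) y x x.length = true)
    (hg : goodU (x :: y :: R) x y k = true) (hm : x.take (x.length - (k + 1)) ++ y = m)
    (hF : F' = m :: R) : Greedy.Step F F' ∧
      ∀ G G' : List (List ℕ), G.Perm F → Greedy.Step G G' → G'.Perm F' := by
  have hne : x ≠ y := by
    intro h
    rw [List.nodup_cons] at hnd
    exact hnd.1 (by rw [h]; exact List.mem_cons_self)
  have hov : Greedy.IsOverlap x y (k + 1) := by
    refine ⟨⟨y.take (k + 1), ?_, ?_, ?_⟩, ?_⟩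
    · rw [List.length_take]
      omega
    · rw [← hk]
      exact List.drop_suffix _ _
    · exact List.take_prefix _ _
    · intro l hl
      obtain ⟨u, hu, h1, h2⟩ := hl
      rw [← hu]
      exact noOv_spec (k + 1) y x _ rfl hxy u h1 h2
  have key : ∀ z w : List ℕ, z ∈ x :: y :: R → w ∈ x :: y :: R → z ≠ w →
      ¬ (z = x ∧ w = y) → ∀ l : ℕ, Greedy.IsOverlap z w l → l ≤ k := by
    intro z w hz hw hzw h0 l hl
    obtain ⟨u, hu, h1, h2⟩ := hl.1
    rw [← hu]
    exact goodU_spec hg hz hw hzw h0 h1 h2
  refine ⟨⟨x, y, R, k + 1, hp, hov, ?_, by rw [hF, hm]⟩, ?_⟩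
  · intro z w R' l hp' hl
    have hq : (z :: w :: R').Perm (x :: y :: R) := hp'.symm.trans hp
    have hnd' : (z :: w :: R').Nodup := hq.nodup_iff.2 hnd
    have hzw : z ≠ w := by
      intro h
      rw [List.nodup_cons] at hnd'
      exact hnd'.1 (by rw [h]; exact List.mem_cons_self)
    by_cases h0 : z = x ∧ w = y
    · obtain ⟨h1, h2⟩ := h0
      subst h1
      subst h2
      exact hov.2 hl.1
    · have h1 := key z w (hq.mem_iff.1 List.mem_cons_self)
        (hq.mem_iff.1 (List.mem_cons_of_mem _ List.mem_cons_self)) hzw h0 l hl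
      omega
  · intro G G' hG hst
    obtain ⟨x', y', R', k', hp', hov', hmax, hG'⟩ := hst
    have hq : (x' :: y' :: R').Perm (x :: y :: R) := hp'.symm.trans (hG.trans hp)
    have hnd' : (x' :: y' :: R').Nodup := hq.nodup_iff.2 hnd
    have hzw : x' ≠ y' := by
      intro h
      rw [List.nodup_cons] at hnd'
      exact hnd'.1 (by rw [h]; exact List.mem_cons_self)
    have h1 : k + 1 ≤ k' := hmax x y R (k + 1) (hG.trans hp) hov
    have h0 : x' = x ∧ y' = y := by
      by_contra h0
      have h2 := key x' y' (hq.mem_iff.1 List.mem_cons_self)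
        (hq.mem_iff.1 (List.mem_cons_of_mem _ List.mem_cons_self)) hzw h0 k' hov'
      omega
    obtain ⟨h2, h3⟩ := h0
    subst h2
    subst h3
    have h4 : k' = k + 1 := le_antisymm (hov.2 hov'.1) h1
    have h5 : R'.Perm R := hq.cons_inv.cons_inv
    rw [hG', hF, h4, hm]
    exact h5.cons _

theorem prefix_cases {u x y : List ℕ} (h : u <+: x ++ y) :
    u <+: x ∨ ∃ v, u = x ++ v ∧ v <+: y := by
  rcases List.prefix_or_prefix_of_prefix h (List.prefix_append x y) with h1 | ⟨v, h1⟩
  · exact Or.inl h1
  · obtain ⟨r, hr⟩ := h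
    refine Or.inr ⟨v, h1.symm, r, ?_⟩
    rw [← h1, List.append_assoc] at hr
    exact List.append_cancel_left hr

theorem suffix_cases {u x y : List ℕ} (h : u <:+ x ++ y) :
    u <:+ y ∨ ∃ v, u = v ++ y ∧ v <:+ x := by
  rcases List.suffix_or_suffix_of_suffix h (List.suffix_append x y) with h1 | ⟨v, h1⟩
  · exact Or.inl h1
  · obtain ⟨r, hr⟩ := h
    refine Or.inr ⟨v, h1.symm, r, ?_⟩
    rw [← h1, ← List.append_assoc] at hr
    exact List.append_cancel_right hr

/-- members are nonempty and distinct members do not overlap -/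
def Inv (F : List (List ℕ)) : Prop :=
  F.Nodup ∧ (∀ z ∈ F, z ≠ []) ∧ ∀ z ∈ F, ∀ w ∈ F, z ≠ w → ∀ u : List ℕ, u <:+ z → u <+: w → u = []

theorem Inv.perm {F G : List (List ℕ)} (h : F.Perm G) (hF : Inv F) : Inv G :=
  ⟨h.nodup_iff.1 hF.1, fun z hz => hF.2.1 z (h.mem_iff.2 hz),
    fun z hz w hw => hF.2.2 z (h.mem_iff.2 hz) w (h.mem_iff.2 hw)⟩

theorem Inv.step {F F' : List (List ℕ)} (hF : Inv F) (h : Greedy.Step F F') :
    Inv F' ∧ (F'.map List.length).sum = (F.map List.length).sum := by
  obtain ⟨x, y, R, k, hp, hov, -, hF'⟩ := h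
  have hI : Inv (x :: y :: R) := hF.perm hp
  obtain ⟨hnd, hn, hI3⟩ := hI
  have hx : x ∈ x :: y :: R := List.mem_cons_self
  have hy : y ∈ x :: y :: R := List.mem_cons_of_mem _ List.mem_cons_self
  have hR : ∀ z ∈ R, z ∈ x :: y :: R := fun z hz =>
    List.mem_cons_of_mem _ (List.mem_cons_of_mem _ hz)
  have hnd1 := List.nodup_cons.1 hnd
  have hnd2 := List.nodup_cons.1 hnd1.2
  have hne : x ≠ y := fun h => hnd1.1 (by rw [h]; exact List.mem_cons_self)
  have hRx : ∀ z ∈ R, z ≠ x := fun z hz h => hnd1.1 (by
    rw [← h]; exact List.mem_cons_of_mem _ hz)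
  have hRy : ∀ z ∈ R, z ≠ y := fun z hz h => hnd2.1 (by rw [← h]; exact hz)
  have hk : k = 0 := by
    obtain ⟨u, hu, h1, h2⟩ := hov.1
    rw [hI3 x hx y hy hne u h1 h2] at hu
    exact hu.symm
  subst hk
  rw [Nat.sub_zero, List.take_length] at hF'
  have hfresh : x ++ y ∉ R := by
    intro h
    have h1 := hI3 (x ++ y) (hR _ h) y hy (hRy _ h) y (List.suffix_append _ _) (List.prefix_refl _)
    exact hn y hy h1
  have hleft : ∀ w ∈ R, ∀ u : List ℕ, u <:+ w → u <+: x ++ y → u = [] := by
    intro w hw u h1 h2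
    rcases prefix_cases h2 with h3 | ⟨v, h3, h4⟩
    · exact hI3 w (hR _ hw) x hx (hRx _ hw) u h1 h3
    · subst h3
      have h5 := hI3 w (hR _ hw) y hy (hRy _ hw) v ((List.suffix_append _ _).trans h1) h4
      subst h5
      rw [List.append_nil] at h1 ⊢
      exact hI3 w (hR _ hw) x hx (hRx _ hw) x h1 (List.prefix_refl _)
  have hright : ∀ w ∈ R, ∀ u : List ℕ, u <:+ x ++ y → u <+: w → u = [] := by
    intro w hw u h1 h2
    rcases suffix_cases h1 with h3 | ⟨v, h3, h4⟩
    · exact hI3 y hy w (hR _ hw) (hRy _ hw).symm u h3 h2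
    · subst h3
      have h5 := hI3 x hx w (hR _ hw) (hRx _ hw).symm v h4 ((List.prefix_append _ _).trans h2)
      subst h5
      rw [List.nil_append] at h2 ⊢
      exact hI3 y hy w (hR _ hw) (hRy _ hw).symm y (List.suffix_refl _) h2
  refine ⟨?_, ?_⟩
  · rw [hF']
    refine ⟨List.nodup_cons.2 ⟨hfresh, hnd2.2⟩, ?_, ?_⟩
    · intro z hz
      rcases List.mem_cons.1 hz with h | h
      · subst h
        intro h
        exact hn x hx (List.append_eq_nil_iff.1 h).1
      · exact hn z (hR _ h)
    · intro z hz w hw hzw u h1 h2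
      rcases List.mem_cons.1 hz with h | h
      · rcases List.mem_cons.1 hw with h' | h'
        · exact absurd (h.trans h'.symm) hzw
        · subst h
          exact hright w h' u h1 h2
      · rcases List.mem_cons.1 hw with h' | h'
        · subst h'
          exact hleft z h u h1 h2
        · exact hI3 z (hR _ h) w (hR _ h') hzw u h1 h2
  · have h1 : (F.map List.length).sum = ((x :: y :: R).map List.length).sum :=
      (hp.map _).sum_eq
    rw [h1, hF']
    simp only [List.map_cons, List.sum_cons, List.length_append]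
    omega

theorem Inv.sum_eq {F F' : List (List ℕ)} (h : Relation.ReflTransGen Greedy.Step F F')
    (hF : Inv F) : (F'.map List.length).sum = (F.map List.length).sum := by
  induction h using Relation.ReflTransGen.head_induction_on with
  | refl => rfl
  | head h _ ih =>
      have h1 := hF.step h
      rw [ih h1.1, h1.2]

/-- all overlaps of distinct members are empty -/
theorem inv_of {F : List (List ℕ)} (h1 : F.Nodup) (h2 : (F.all fun z => !z.isEmpty) = true)
    (h3 : good F 0 = true) : Inv F := by
  refine ⟨h1, ?_, ?_⟩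
  · intro z hz h
    rw [List.all_eq_true] at h2
    have := h2 z hz
    rw [h] at this
    simp at this
  · intro z hz w hw hne u h4 h5
    have h6 := good_spec h3 hz hw hne h4 h5
    exact List.length_eq_zero_iff.1 (Nat.le_zero.1 h6)

theorem head_step {L L' : List (List ℕ)} {t : List ℕ}
    (hU : Greedy.Step L L' ∧ ∀ G G' : List (List ℕ), G.Perm L → Greedy.Step G G' → G'.Perm L')
    (hL : 2 ≤ L.length) {F : List (List ℕ)} (hF : F.Perm L)
    (h : Relation.ReflTransGen Greedy.Step F [t]) :
    ∃ F' : List (List ℕ), F'.Perm L' ∧ Relation.ReflTransGen Greedy.Step F' [t] := by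
  rcases Relation.ReflTransGen.cases_head h with h1 | ⟨F', h1, h2⟩
  · have h3 := hF.length_eq
    rw [h1] at h3
    simp at h3
    omega
  · exact ⟨F', hU.2 F F' hF h1, h2⟩

theorem perm_of_reduced {S F : List (List ℕ)} (hS : Greedy.Reduced S S)
    (hF : Greedy.Reduced S F) : F.Perm S := by
  refine (List.perm_ext_iff_of_nodup hF.1 hS.1).2 fun s => ?_
  exact ⟨fun h => ((hF.2 s).1 h).1, fun h => (hF.2 s).2 ((hS.2 s).1 h)⟩

end Vale.Agent.P333.H476.TF
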